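import Mathlib

/-!
# P267, package EG-DEG (helper670)

A proper local homeomorphism onto a connected space, one fibre of which is a single
point, is a homeomorphism.  Relative version for a continuous map `P : M → B` on an open set.
-/

open Set Filter Topology

namespace Vale.Agent.P267.H670

variable {W B : Type*} [TopologicalSpace W] [TopologicalSpace B]

/-- Fibres of a proper local homeomorphism are finite. -/
theorem finite_fiber {f : W → B} (hp : IsProperMap f)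
    (hl : IsLocalHomeomorph f) (b : B) : (f ⁻¹' {b}).Finite := by
  have hc : IsCompact (f ⁻¹' {b}) :=
    (isProperMap_iff_isClosedMap_and_compact_fibers.1 hp).2.2 b
  refine hc.finite (IsDiscrete.of_openPartialHomeomorph f subset_rfl fun e _ => ?_)
  obtain ⟨φ, hφ, rfl⟩ := hl e
  exact ⟨φ, hφ, rfl⟩

/-- A proper local homeomorphism with Hausdorff source is a covering map. -/
theorem isCoveringMap_of_proper [T2Space W] {f : W → B} (hp : IsProperMap f)
    (hl : IsLocalHomeomorph f) : IsCoveringMap f := by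
  rw [isCoveringMap_iff_isCoveringMapOn_univ]
  refine (isProperMap_iff_isClosedMap_and_compact_fibers.1 hp).2.1
    |>.isCoveringMapOn_of_isLocalHomeomorphOn (fun b _ => finite_fiber hp hl b) ?_
  simpa [← isLocalHomeomorph_iff_isLocalHomeomorphOn_univ] using hl

/-- For a covering map the number of points of the fibre is locally constant. -/
theorem isLocallyConstant_card {f : W → B} (hc : IsCoveringMap f) :
    IsLocallyConstant fun b => Nat.card (f ⁻¹' {b}) := by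
  rw [IsLocallyConstant.iff_eventually_eq]
  intro b
  obtain ⟨hd, U, hb, hU, hfU, H, hH⟩ := hc b
  have key : ∀ b' ∈ U, Nat.card (f ⁻¹' {b'}) = Nat.card (f ⁻¹' {b}) := fun b' hb' =>
    (Nat.card_congr (IsEvenlyCovered.fiberHomeomorph
      (f := f) (x := b') (I := f ⁻¹' {b}) ⟨hd, U, hb', hU, hfU, H, hH⟩).toEquiv).symm
  filter_upwards [hU.mem_nhds hb] with b' hb' using key b' hb'

/-- **EG-DEG.**  A proper local homeomorphism with Hausdorff source, connected target and one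
fibre consisting of a single point is a homeomorphism. -/
theorem isHomeomorph_of_proper [T2Space W] [PreconnectedSpace B] {f : W → B}
    (hp : IsProperMap f) (hl : IsLocalHomeomorph f) {w₀ : W}
    (h1 : ∀ w, f w = f w₀ → w = w₀) : IsHomeomorph f := by
  have hlc := isLocallyConstant_card (isCoveringMap_of_proper hp hl)
  have h0 : Nat.card (f ⁻¹' {f w₀}) = 1 := by
    rw [Nat.card_eq_one_iff_unique]
    exact ⟨⟨fun a b => Subtype.ext ((h1 _ a.2).trans (h1 _ b.2).symm)⟩, ⟨⟨w₀, rfl⟩⟩⟩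
  have hcard : ∀ b, Nat.card (f ⁻¹' {b}) = 1 := fun b =>
    (hlc.apply_eq_of_preconnectedSpace b (f w₀)).trans h0
  refine ⟨hp.continuous, hl.isOpenMap, ?_, ?_⟩
  · intro a b hab
    have h := (Nat.card_eq_one_iff_unique.1 (hcard (f b))).1
    have := h.elim ⟨a, hab⟩ ⟨b, rfl⟩
    exact congrArg Subtype.val this
  · intro b
    obtain ⟨⟨w, hw⟩⟩ := (Nat.card_eq_one_iff_unique.1 (hcard b)).2
    exact ⟨w, hw⟩

/-- **EG-DEG, relative version.**  `P : M → B'` is continuous on the open set `O ⊆ M`, maps `O`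
into `V ⊆ B'`, is locally injective and open on `O`, the part of `O` over every compact subset of
`V` is compact, `V` is preconnected, and some point of `V` has exactly one preimage in `O`.
Then `P` maps `O` bijectively onto `V` and is open on `O`. -/
theorem bijOn_of_proper {M B' : Type*} [TopologicalSpace M] [TopologicalSpace B']
    [T2Space M] [T2Space B'] [LocallyCompactSpace B'] {P : M → B'} {O : Set M} {V : Set B'}
    (hO : IsOpen O) (hV : IsOpen V) (hc : IsPreconnected V) (hmaps : MapsTo P O V)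
    (hl : IsLocalHomeomorphOn P O)
    (hprop : ∀ K ⊆ V, IsCompact K → IsCompact (O ∩ P ⁻¹' K))
    {w₀ : M} (hw₀ : w₀ ∈ O) (h1 : ∀ w ∈ O, P w = P w₀ → w = w₀) :
    BijOn P O V ∧ (∀ s ⊆ O, IsOpen s → IsOpen (P '' s)) := by
  let f : O → V := hmaps.restrict P O V
  have hcont : ContinuousOn P O := hl.continuousOn
  have hfc : Continuous f := hcont.mapsToRestrict hmaps
  have hfl : IsLocalHomeomorph f := by
    have h2 : IsLocalHomeomorph ((↑) ∘ f : O → B') := by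
      rw [isLocalHomeomorph_iff_isLocalHomeomorphOn_univ]
      exact hl.comp (hO.isOpenEmbedding_subtypeVal.isLocalHomeomorph.isLocalHomeomorphOn)
        (fun x _ => x.2)
    exact h2.of_comp hV.isOpenEmbedding_subtypeVal.isLocalHomeomorph hfc
  have : PreconnectedSpace V := Subtype.preconnectedSpace hc
  have : LocallyCompactSpace V := hV.locallyCompactSpace
  have hfp : IsProperMap f := by
    rw [isProperMap_iff_isCompact_preimage]
    refine ⟨hfc, fun {K} hK => ?_⟩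
    have hK' : IsCompact ((↑) '' K : Set B') := hK.image continuous_subtype_val
    have h2 := hprop _ (by rintro _ ⟨x, -, rfl⟩; exact x.2) hK'
    have h3 : IsCompact ((↑) ⁻¹' (O ∩ P ⁻¹' ((↑) '' K)) : Set O) :=
      (Topology.IsInducing.subtypeVal.isCompact_preimage_iff (by
        rintro x hx; exact ⟨⟨x, hx.1⟩, rfl⟩)).2 h2
    convert h3 using 1
    ext x
    constructor
    · intro hx; exact ⟨x.2, f x, hx, rfl⟩
    · rintro ⟨-, y, hy, hxy⟩
      have h4 : y = f x := Subtype.ext hxy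
      rw [h4] at hy
      exact hy
  have hH := isHomeomorph_of_proper hfp hfl (w₀ := ⟨w₀, hw₀⟩) (fun w hw =>
    Subtype.ext (h1 w w.2 (congrArg Subtype.val hw)))
  refine ⟨⟨hmaps, ?_, ?_⟩, ?_⟩
  · intro a ha b hb hab
    exact congrArg Subtype.val (hH.injective (a₁ := ⟨a, ha⟩) (a₂ := ⟨b, hb⟩) (Subtype.ext hab))
  · intro b hb
    obtain ⟨w, hw⟩ := hH.surjective ⟨b, hb⟩
    exact ⟨w, w.2, congrArg Subtype.val hw⟩
  · intro s hs hso
    have h3 : IsOpen (f '' ((↑) ⁻¹' s)) := hH.isOpenMap _ (hso.preimage continuous_subtype_val)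
    have h4 := hV.isOpenMap_subtype_val _ h3
    convert h4 using 1
    ext y
    constructor
    · rintro ⟨x, hx, rfl⟩
      exact ⟨f ⟨x, hs hx⟩, ⟨⟨x, hs hx⟩, hx, rfl⟩, rfl⟩
    · rintro ⟨_, ⟨x, hx, rfl⟩, rfl⟩
      exact ⟨x, hx, rfl⟩

/-- The punctured ball of a real normed space of dimension at least two is preconnected. -/
theorem isPreconnected_puncturedBall {E : Type*} [NormedAddCommGroup E] [NormedSpace ℝ E]
    (h : 1 < Module.rank ℝ E) (ε : ℝ) : IsPreconnected {v : E | v ≠ 0 ∧ ‖v‖ < ε} := by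
  have h1 : IsPreconnected ((Ioo (0 : ℝ) ε) ×ˢ (Metric.sphere (0 : E) 1)) :=
    isPreconnected_Ioo.prod (isPreconnected_sphere h 0 1)
  have h2 := h1.image (fun p : ℝ × E => p.1 • p.2) (by fun_prop)
  convert h2 using 1
  ext v
  constructor
  · rintro ⟨hv, hv2⟩
    have hv' : 0 < ‖v‖ := norm_pos_iff.2 hv
    refine ⟨(‖v‖, ‖v‖⁻¹ • v), ⟨⟨hv', hv2⟩, ?_⟩, ?_⟩
    · simp [norm_smul, hv'.ne']
    · simp [smul_smul, hv'.ne']
  · rintro ⟨⟨r, u⟩, ⟨hr, hu⟩, rfl⟩
    have hu1 : ‖u‖ = 1 := by simpa using hu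
    have hr0 : 0 < r := hr.1
    refine ⟨?_, ?_⟩
    · simp only [ne_eq, smul_eq_zero, not_or]
      exact ⟨hr0.ne', fun h => by simp [h] at hu1⟩
    · simpa [norm_smul, hu1, abs_of_pos hr0] using hr.2

/-- **EG-DEG, version for the contraction map.**  `Ω ⊆ M` open, `P : M → E` (a real normed space
of finite dimension `≥ 2`), local homeomorphism at the points of `Ω` where `0 < ‖P‖ < ε`; for
`0 < δ ≤ r < ε` the set `{x ∈ Ω | δ ≤ ‖P x‖ ≤ r}` is compact; one point `w₀` of the punctured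
region is alone in its fibre.  Then `P` maps `{x ∈ Ω | P x ≠ 0 ∧ ‖P x‖ < ε}` bijectively and
openly onto the punctured ball. -/
theorem bijOn_puncturedBall {M E : Type*} [TopologicalSpace M] [T2Space M]
    [NormedAddCommGroup E] [NormedSpace ℝ E] [FiniteDimensional ℝ E]
    (h : 1 < Module.rank ℝ E) {P : M → E} {Ω : Set M} (hΩ : IsOpen Ω) {ε : ℝ}
    (hl : IsLocalHomeomorphOn P (Ω ∩ {x | P x ≠ 0 ∧ ‖P x‖ < ε}))
    (hprop : ∀ δ r : ℝ, 0 < δ → δ ≤ r → r < ε → IsCompact (Ω ∩ {x | δ ≤ ‖P x‖ ∧ ‖P x‖ ≤ r}))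
    (hcont : ContinuousOn P Ω)
    {w₀ : M} (hw₀ : w₀ ∈ Ω) (hw₁ : P w₀ ≠ 0) (hw₂ : ‖P w₀‖ < ε)
    (h1 : ∀ w ∈ Ω, P w = P w₀ → w = w₀) :
    BijOn P (Ω ∩ {x | P x ≠ 0 ∧ ‖P x‖ < ε}) {v | v ≠ 0 ∧ ‖v‖ < ε} ∧
      IsOpen (Ω ∩ {x | P x ≠ 0 ∧ ‖P x‖ < ε}) ∧
      (∀ s ⊆ Ω ∩ {x | P x ≠ 0 ∧ ‖P x‖ < ε}, IsOpen s → IsOpen (P '' s)) := by
  have hV : IsOpen {v : E | v ≠ 0 ∧ ‖v‖ < ε} :=
    isOpen_ne.inter (isOpen_lt continuous_norm continuous_const)
  have hO : IsOpen (Ω ∩ {x | P x ≠ 0 ∧ ‖P x‖ < ε}) := hcont.isOpen_inter_preimage hΩ hV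
  have : ProperSpace E := FiniteDimensional.proper_real E
  have hprop' : ∀ K ⊆ {v : E | v ≠ 0 ∧ ‖v‖ < ε}, IsCompact K →
      IsCompact ((Ω ∩ {x | P x ≠ 0 ∧ ‖P x‖ < ε}) ∩ P ⁻¹' K) := by
    intro K hK hKc
    rcases K.eq_empty_or_nonempty with rfl | hne
    · simp
    obtain ⟨a, ha, hmin⟩ := hKc.exists_isMinOn hne continuous_norm.continuousOn
    obtain ⟨b, hbK, hmax⟩ := hKc.exists_isMaxOn hne continuous_norm.continuousOn
    have h2 := hprop ‖a‖ ‖b‖ (norm_pos_iff.2 (hK ha).1) (hmin hbK) (hK hbK).2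
    have h3 : (Ω ∩ {x | P x ≠ 0 ∧ ‖P x‖ < ε}) ∩ P ⁻¹' K =
        (Ω ∩ {x | ‖a‖ ≤ ‖P x‖ ∧ ‖P x‖ ≤ ‖b‖}) ∩ P ⁻¹' K := by
      ext x
      constructor
      · rintro ⟨⟨hx, -⟩, hxK⟩
        exact ⟨⟨hx, hmin hxK, hmax hxK⟩, hxK⟩
      · rintro ⟨⟨hx, -⟩, hxK⟩
        exact ⟨⟨hx, hK hxK⟩, hxK⟩
    rw [h3]
    have h4 : IsClosed (P ⁻¹' K ∩ (Ω ∩ {x | ‖a‖ ≤ ‖P x‖ ∧ ‖P x‖ ≤ ‖b‖})) := by
      have h5 : ContinuousOn P (Ω ∩ {x | ‖a‖ ≤ ‖P x‖ ∧ ‖P x‖ ≤ ‖b‖}) :=
        hcont.mono inter_subset_left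
      rw [inter_comm]
      exact h5.preimage_isClosed_of_isClosed h2.isClosed hKc.isClosed
    rw [inter_comm]
    exact h2.of_isClosed_subset h4 inter_subset_right
  obtain ⟨hb, ho⟩ := bijOn_of_proper (P := P) (V := {v : E | v ≠ 0 ∧ ‖v‖ < ε}) hO hV
    (isPreconnected_puncturedBall h ε) (fun x hx => hx.2) hl hprop'
    (w₀ := w₀) ⟨hw₀, hw₁, hw₂⟩ (fun w hw => h1 w hw.1)
  exact ⟨hb, hO, ho⟩

end Vale.Agent.P267.H670
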